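import Vale.Agent.Lib.P372.NCopy
import Vale.Agent.Lib.P372.Example

/-!
# P372: no secret key by one-way communication from symmetrically extendible states

For every state `ρ` on `A ⊗ B` with a symmetric extension, every purification `ψ` held by Eve,
every number of copies `n`, every key length `ℓ` and every one-way protocol (Alice measures a POVM
with outcome (key, public message), Bob measures a POVM depending on the message), the final state
has trace-norm distance at least `1 - 2^(-ℓ)` from every ideal key state.  Moreover there is an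
entangled two-qubit state with a symmetric extension (the two-party marginal of the W state).
-/

namespace Vale.Agent.Results.P372.OneWayNoKey

open Matrix Vale.Agent.Lib.P372

theorem result :
    (∀ (A B E : Type) [Fintype A] [DecidableEq A] [Fintype B] [DecidableEq B]
        [Fintype E] [DecidableEq E]
        (ρ : Matrix (A × B) (A × B) ℂ) (ψ : A × B × E → ℂ),
        IsState ρ → IsPurification ψ ρ → HasSymmExt ρ →
        ∀ (n ℓ : ℕ) (M : Type) [Fintype M] [DecidableEq M]
          (PA : (Fin ℓ → Bool) × M → Matrix (Fin n → A) (Fin n → A) ℂ)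
          (PB : M → (Fin ℓ → Bool) → Matrix (Fin n → B) (Fin n → B) ℂ),
          IsPOVM PA → (∀ m, IsPOVM (PB m)) →
          ∀ σ : Matrix (M × (Fin n → E)) (M × (Fin n → E)) ℂ, IsState σ →
            1 - 1 / 2 ^ ℓ ≤ traceNorm (ccqState (tensorPow n ψ) PA PB - idealKey σ)) ∧
    (∃ ρ : Matrix (Bool × Bool) (Bool × Bool) ℂ,
        IsState ρ ∧ ¬ IsSeparable ρ ∧ HasSymmExt ρ ∧
        ∀ a b a' b', ρ (a, b) (a', b') = ρ (b, a) (b', a')) := by
  refine ⟨?_, rhoW, rhoW_isState, rhoW_not_separable, rhoW_hasSymmExt, rhoW_swap⟩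
  intro A B E _ _ _ _ _ _ ρ ψ _ hψ hρ n ℓ M _ _ PA PB _ hPB σ hσ
  have h := one_way_bound ρ ψ hψ hρ n PA PB hPB σ hσ
  have hc : ((Fintype.card (Fin ℓ → Bool) : ℝ))⁻¹ = 1 / 2 ^ ℓ := by
    simp
  rwa [hc] at h

end Vale.Agent.Results.P372.OneWayNoKey
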